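import Mathlib

/-!
P254, row CHEB: Chebyshev's inequality for several similarly ordered functions, division free.
-/

namespace Vale.Agent.P254o

open MeasureTheory
open scoped ENNReal

namespace Cheb

theorem rearr {p q r s : ℝ≥0∞} (h : q ≤ p) (h' : s ≤ r) : p * s + q * r ≤ p * r + q * s := by
  obtain ⟨u, rfl⟩ := exists_add_of_le h
  calc (q + u) * s + q * r = q * s + q * r + u * s := by ring
    _ ≤ q * s + q * r + u * r := by gcongr
    _ = (q + u) * r + q * s := by ring

/-- Chebyshev for two functions that are similarly ordered where the weight does not vanish. -/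
theorem two {a f g : ℝ → ℝ≥0∞} (ha : Measurable a) (hf : Measurable f) (hg : Measurable g)
    (h : ∀ x y, a x ≠ 0 → a y ≠ 0 → x ≤ y → f y ≤ f x ∧ g y ≤ g x) :
    (∫⁻ t, a t * f t) * (∫⁻ t, a t * g t) ≤ (∫⁻ t, a t) * ∫⁻ t, a t * (f t * g t) := by
  have key : ∀ x y, a x * f x * (a y * g y) + a x * g x * (a y * f y) ≤
      a x * (f x * g x) * a y + a x * (a y * (f y * g y)) := by
    intro x y
    have h1 : a x * f x * (a y * g y) + a x * g x * (a y * f y) =
        a x * a y * (f x * g y + g x * f y) := by ring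
    have h2 : a x * (f x * g x) * a y + a x * (a y * (f y * g y)) =
        a x * a y * (f x * g x + f y * g y) := by ring
    rw [h1, h2]
    by_cases hx : a x = 0
    · simp [hx]
    by_cases hy : a y = 0
    · simp [hy]
    refine mul_le_mul_right ?_ _
    rcases le_total x y with hxy | hxy
    · obtain ⟨h3, h4⟩ := h x y hx hy hxy
      calc f x * g y + g x * f y = f x * g y + f y * g x := by ring
        _ ≤ f x * g x + f y * g y := rearr h3 h4
    · obtain ⟨h3, h4⟩ := h y x hy hx hxy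
      calc f x * g y + g x * f y = f y * g x + f x * g y := by ring
        _ ≤ f y * g y + f x * g x := rearr h3 h4
        _ = f x * g x + f y * g y := by ring
  have hint := lintegral_mono (μ := volume) (fun x => lintegral_mono (μ := volume) (key x))
  have m1 : Measurable fun t => a t * f t := ha.mul hf
  have m2 : Measurable fun t => a t * g t := ha.mul hg
  have m3 : Measurable fun t => a t * (f t * g t) := ha.mul (hf.mul hg)
  have e1 : ∀ x, ∫⁻ y, (a x * f x * (a y * g y) + a x * g x * (a y * f y)) =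
      a x * f x * (∫⁻ y, a y * g y) + a x * g x * ∫⁻ y, a y * f y := by
    intro x
    rw [lintegral_add_left (m2.const_mul _), lintegral_const_mul _ m2, lintegral_const_mul _ m1]
  have e2 : ∀ x, ∫⁻ y, (a x * (f x * g x) * a y + a x * (a y * (f y * g y))) =
      a x * (f x * g x) * (∫⁻ y, a y) + a x * ∫⁻ y, a y * (f y * g y) := by
    intro x
    rw [lintegral_add_left (ha.const_mul _), lintegral_const_mul _ ha, lintegral_const_mul _ m3]
  simp only [e1, e2] at hint
  rw [lintegral_add_left (m1.mul_const _), lintegral_mul_const _ m1, lintegral_mul_const _ m2,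
    lintegral_add_left (m3.mul_const _), lintegral_mul_const _ m3, lintegral_mul_const _ ha] at hint
  have h5 : (2 : ℝ≥0∞) * ((∫⁻ t, a t * f t) * (∫⁻ t, a t * g t)) ≤
      2 * ((∫⁻ t, a t) * ∫⁻ t, a t * (f t * g t)) := by
    calc (2 : ℝ≥0∞) * ((∫⁻ t, a t * f t) * (∫⁻ t, a t * g t))
        = (∫⁻ t, a t * f t) * (∫⁻ t, a t * g t) + (∫⁻ t, a t * g t) * (∫⁻ t, a t * f t) := by ring
      _ ≤ _ := hint
      _ = 2 * ((∫⁻ t, a t) * ∫⁻ t, a t * (f t * g t)) := by ring
  exact (ENNReal.mul_le_mul_iff_right two_ne_zero ENNReal.ofNat_ne_top).1 h5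

end Cheb

theorem cheb {n : ℕ} {a : ℝ → ℝ≥0∞} (ha : Measurable a) (hafin : ∀ t, a t ≠ ∞)
    (ha0 : ∀ t < 0, a t = 0) (hint : ∫⁻ t, a t ≠ ∞) {m : Fin n → ℝ → ℝ≥0∞}
    (hm : ∀ j, Measurable (m j)) (hm0 : ∀ j t, a t = 0 → m j t = 0)
    (hmon : ∀ j x y, 0 ≤ x → x ≤ y → m j y * a x ≤ m j x * a y)
    (hprod : ∀ t, ∏ j, m j t ≤ a t ^ (n + 1)) :
    (∏ j, ∫⁻ t, m j t) * ∫⁻ t, a t ≤ (∫⁻ t, a t) ^ n * ∫⁻ t, a t ^ 2 := by
  set f : Fin n → ℝ → ℝ≥0∞ := fun j t => m j t / a t with hf
  have hfm : ∀ j, Measurable (f j) := fun j => (hm j).div ha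
  have hmf : ∀ j t, m j t = a t * f j t := by
    intro j t
    by_cases h : a t = 0
    · rw [hm0 j t h, h, zero_mul]
    · rw [hf, ENNReal.mul_div_cancel h (hafin t)]
  have hanti : ∀ j x y, a x ≠ 0 → a y ≠ 0 → x ≤ y → f j y ≤ f j x := by
    intro j x y hx hy hxy
    have hx0 : 0 ≤ x := by
      by_contra hc
      exact hx (ha0 x (not_le.1 hc))
    have h1 := hmon j x y hx0 hxy
    rw [hmf j y, hmf j x] at h1
    have h2 : (a x * a y) * f j y ≤ (a x * a y) * f j x := by
      calc (a x * a y) * f j y = a y * f j y * a x := by ring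
        _ ≤ a x * f j x * a y := h1
        _ = (a x * a y) * f j x := by ring
    exact (ENNReal.mul_le_mul_iff_right (mul_ne_zero hx hy)
      (ENNReal.mul_ne_top (hafin x) (hafin y))).1 h2
  have main : ∀ s : Finset (Fin n), (∏ j ∈ s, ∫⁻ t, m j t) * (∫⁻ t, a t) ≤
      (∫⁻ t, a t) ^ s.card * ∫⁻ t, a t * ∏ j ∈ s, f j t := by
    intro s
    induction s using Finset.induction_on with
    | empty => simp
    | insert i s his ih =>
      rw [Finset.prod_insert his, Finset.card_insert_of_notMem his]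
      have h1 := Cheb.two (a := a) (f := fun t => ∏ j ∈ s, f j t) (g := f i) ha
        (Finset.measurable_fun_prod s fun j _ => hfm j) (hfm i) (by
          intro x y hx hy hxy
          exact ⟨Finset.prod_le_prod' fun j _ => hanti j x y hx hy hxy, hanti i x y hx hy hxy⟩)
      have h2 : ∀ t, a t * ∏ j ∈ insert i s, f j t = a t * ((∏ j ∈ s, f j t) * f i t) := by
        intro t
        rw [Finset.prod_insert his, mul_comm (f i t)]
      simp only [h2]
      have h3 : ∫⁻ t, m i t = ∫⁻ t, a t * f i t := lintegral_congr fun t => hmf i t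
      rw [h3]
      calc (∫⁻ t, a t * f i t) * (∏ j ∈ s, ∫⁻ t, m j t) * (∫⁻ t, a t)
          = ((∏ j ∈ s, ∫⁻ t, m j t) * (∫⁻ t, a t)) * (∫⁻ t, a t * f i t) := by ring
        _ ≤ ((∫⁻ t, a t) ^ s.card * ∫⁻ t, a t * ∏ j ∈ s, f j t) * (∫⁻ t, a t * f i t) :=
            mul_le_mul_left ih _
        _ = (∫⁻ t, a t) ^ s.card *
            ((∫⁻ t, a t * ∏ j ∈ s, f j t) * (∫⁻ t, a t * f i t)) := by ring
        _ ≤ (∫⁻ t, a t) ^ s.card *
            ((∫⁻ t, a t) * ∫⁻ t, a t * ((∏ j ∈ s, f j t) * f i t)) :=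
            mul_le_mul_right h1 _
        _ = (∫⁻ t, a t) ^ (s.card + 1) *
            ∫⁻ t, a t * ((∏ j ∈ s, f j t) * f i t) := by ring
  have h1 := main Finset.univ
  rw [Finset.card_univ, Fintype.card_fin] at h1
  refine h1.trans (mul_le_mul_right (lintegral_mono fun t => ?_) _)
  by_cases h : a t = 0
  · simp [h]
  have h2 := hprod t
  have h3 : ∏ j, m j t = a t ^ n * ∏ j, f j t := by
    rw [Finset.prod_congr rfl fun j _ => hmf j t, Finset.prod_mul_distrib]
    simp
  rw [h3, pow_succ] at h2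
  have h4 : ∏ j, f j t ≤ a t :=
    (ENNReal.mul_le_mul_iff_right (pow_ne_zero n h) (ENNReal.pow_ne_top (hafin t))).1 h2
  calc a t * ∏ j, f j t ≤ a t * a t := mul_le_mul_right h4 _
    _ = a t ^ 2 := by ring

end Vale.Agent.P254o
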