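import Vale.Agent.P254.Defs

/-!
P254, Musielak-Orlicz balls: definitions.
-/

namespace Vale.Agent.P254o

open MeasureTheory
open scoped ENNReal

/-- a family of Orlicz functions -/
structure Orl {n : ℕ} (φ : Fin n → ℝ → ℝ) : Prop where
  cont : ∀ i, ContinuousOn (φ i) (Set.Ici 0)
  conv : ∀ i, ConvexOn ℝ (Set.Ici 0) (φ i)
  mono : ∀ i, MonotoneOn (φ i) (Set.Ici 0)
  zero : ∀ i, φ i 0 = 0
  pos : ∀ i, ∃ x, 0 < x ∧ 0 < φ i x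

/-- the positive part of the Musielak-Orlicz ball of level `l` -/
def Dm {n : ℕ} (φ : Fin n → ℝ → ℝ) (l : ℝ) : Set (Fin n → ℝ) :=
  {x | (∀ i, 0 ≤ x i) ∧ ∑ i, φ i (x i) ≤ l}

/-- its volume -/
noncomputable def V {n : ℕ} (φ : Fin n → ℝ → ℝ) (l : ℝ) : ℝ≥0∞ := volume (Dm φ l)

/-- its first moments -/
noncomputable def Mo {n : ℕ} (φ : Fin n → ℝ → ℝ) (l : ℝ) (j : Fin n) : ℝ≥0∞ :=
  ∫⁻ x in Dm φ l, ENNReal.ofReal (x j)

/-- the Musielak-Orlicz ball -/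
def Ball {n : ℕ} (φ : Fin n → ℝ → ℝ) : Set (Fin n → ℝ) := {x | ∑ i, φ i |x i| ≤ 1}

end Vale.Agent.P254o
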