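import Vale.Agent.P254.Sec
import Vale.Agent.P254o.Defs

/-!
P254, row LC: log-concavity of the volume of Musielak-Orlicz balls in the level, from the
one-dimensional Prékopa-Leindler inequality for decreasing functions on the half line.
-/

namespace Vale.Agent.P254o

open MeasureTheory
open scoped ENNReal

namespace LC

/-- measure of superlevel sets of decreasing functions -/
theorem level {f g h : ℝ → ℝ} {θ : ℝ} (hθ0 : 0 ≤ θ) (hθ1 : θ ≤ 1) {t : ℝ}
    (fa : AntitoneOn f (Set.Ici 0)) (ga : AntitoneOn g (Set.Ici 0)) (ha : AntitoneOn h (Set.Ici 0))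
    {R : ℝ} (fR : ∀ x, R < x → f x ≤ t) (gR : ∀ x, R < x → g x ≤ t)
    (f0 : t < f 0) (g0 : t < g 0)
    (H : ∀ x y, 0 ≤ x → 0 ≤ y → t < f x → t < g y → t < h ((1 - θ) * x + θ * y)) :
    ENNReal.ofReal (1 - θ) * (volume.restrict (Set.Ioi (0 : ℝ))) {x | t < f x} +
      ENNReal.ofReal θ * (volume.restrict (Set.Ioi (0 : ℝ))) {x | t < g x} ≤
      (volume.restrict (Set.Ioi (0 : ℝ))) {x | t < h x} := by
  set μ : Measure ℝ := volume.restrict (Set.Ioi (0 : ℝ)) with hμ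
  have key : ∀ u : ℝ → ℝ, AntitoneOn u (Set.Ici 0) → ∀ p : ℝ, 0 < p → u p ≤ t →
      μ {x | t < u x} ≤ ENNReal.ofReal p := by
    intro u ua p hp hup
    have h1 : {x | t < u x} ∩ Set.Ioi (0 : ℝ) ⊆ Set.Ioc 0 p := by
      rintro x ⟨hx, hx0⟩
      refine ⟨hx0, ?_⟩
      by_contra hc
      have hc' : p < x := not_le.1 hc
      have := ua (Set.mem_Ici.2 hp.le) (Set.mem_Ici.2 (le_of_lt hx0)) hc'.le
      exact absurd (lt_of_lt_of_le hx this) (not_lt.2 hup)
    calc μ {x | t < u x} = volume ({x | t < u x} ∩ Set.Ioi (0 : ℝ)) := by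
          rw [hμ, Measure.restrict_apply' measurableSet_Ioi]
      _ ≤ volume (Set.Ioc 0 p) := measure_mono h1
      _ = ENNReal.ofReal p := by rw [Real.volume_Ioc, sub_zero]
  have fin : ∀ u : ℝ → ℝ, AntitoneOn u (Set.Ici 0) → (∀ x, R < x → u x ≤ t) →
      μ {x | t < u x} ≠ ∞ := by
    intro u ua hu
    have h1 := key u ua (|R| + 1) (by positivity) (hu _ (by linarith [le_abs_self R]))
    exact ne_top_of_le_ne_top ENNReal.ofReal_ne_top h1
  have mem : ∀ u : ℝ → ℝ, AntitoneOn u (Set.Ici 0) → (∀ x, R < x → u x ≤ t) → t < u 0 →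
      ∀ ε : ℝ, 0 < ε → t < u (max ((μ {x | t < u x}).toReal - ε) 0) := by
    intro u ua hu hu0 ε hε
    by_contra hc
    have hc' := not_lt.1 hc
    rcases le_or_gt ((μ {x | t < u x}).toReal - ε) 0 with h1 | h1
    · rw [max_eq_right h1] at hc'
      exact absurd hu0 (not_lt.2 hc')
    · rw [max_eq_left h1.le] at hc'
      have h2 := key u ua _ h1 hc'
      have h3 := ENNReal.toReal_mono ENNReal.ofReal_ne_top h2
      rw [ENNReal.toReal_ofReal h1.le] at h3
      linarith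
  by_cases hC : μ {x | t < h x} = ∞
  · rw [hC]
    exact le_top
  set a := (μ {x | t < f x}).toReal with ha'
  set b := (μ {x | t < g x}).toReal with hb'
  set c := (μ {x | t < h x}).toReal with hc'
  have ea : μ {x | t < f x} = ENNReal.ofReal a := (ENNReal.ofReal_toReal (fin f fa fR)).symm
  have eb : μ {x | t < g x} = ENNReal.ofReal b := (ENNReal.ofReal_toReal (fin g ga gR)).symm
  have ec : μ {x | t < h x} = ENNReal.ofReal c := (ENNReal.ofReal_toReal hC).symm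
  have ha0 : 0 ≤ a := ENNReal.toReal_nonneg
  have hb0 : 0 ≤ b := ENNReal.toReal_nonneg
  have hc0 : 0 ≤ c := ENNReal.toReal_nonneg
  have h1θ : 0 ≤ 1 - θ := by linarith
  rw [ea, eb, ec, ← ENNReal.ofReal_mul h1θ, ← ENNReal.ofReal_mul hθ0,
    ← ENNReal.ofReal_add (mul_nonneg h1θ ha0) (mul_nonneg hθ0 hb0)]
  refine ENNReal.ofReal_le_ofReal ?_
  refine le_of_forall_pos_le_add fun ε hε => ?_
  have hx := mem f fa fR f0 ε hε
  have hy := mem g ga gR g0 ε hε
  rw [← ha'] at hx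
  rw [← hb'] at hy
  have hz := H _ _ (le_max_right _ _) (le_max_right _ _) hx hy
  set z := (1 - θ) * max (a - ε) 0 + θ * max (b - ε) 0 with hzdef
  have hz0 : 0 ≤ z := by
    have h1 : 0 ≤ max (a - ε) 0 := le_max_right _ _
    have h2 : 0 ≤ max (b - ε) 0 := le_max_right _ _
    positivity
  have h2 : ENNReal.ofReal z ≤ ENNReal.ofReal c := by
    rw [← ec]
    calc ENNReal.ofReal z = volume (Set.Ioc 0 z) := by rw [Real.volume_Ioc, sub_zero]
      _ ≤ volume ({x | t < h x} ∩ Set.Ioi (0 : ℝ)) := by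
          refine measure_mono fun x hx => ⟨?_, hx.1⟩
          exact lt_of_lt_of_le hz (ha (Set.mem_Ici.2 hx.1.le) (Set.mem_Ici.2 hz0) hx.2)
      _ = μ {x | t < h x} := by rw [hμ, Measure.restrict_apply' measurableSet_Ioi]
  have h3 : z ≤ c := (ENNReal.ofReal_le_ofReal_iff hc0).1 h2
  have h4 : (1 - θ) * (a - ε) ≤ (1 - θ) * max (a - ε) 0 :=
    mul_le_mul_of_nonneg_left (le_max_left _ _) h1θ
  have h5 : θ * (b - ε) ≤ θ * max (b - ε) 0 :=
    mul_le_mul_of_nonneg_left (le_max_left _ _) hθ0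
  nlinarith

/-- layer cake for functions with values in `[0,1]` on the half line -/
theorem cake {f : ℝ → ℝ} (fa : AntitoneOn f (Set.Ici 0)) (f0 : ∀ x, 0 ≤ x → 0 ≤ f x)
    (f1 : f 0 ≤ 1) :
    ∫⁻ x in Set.Ioi (0 : ℝ), ENNReal.ofReal (f x) =
      ∫⁻ t in Set.Ioo (0 : ℝ) 1, (volume.restrict (Set.Ioi (0 : ℝ))) {x | t < f x} := by
  have hm : AEMeasurable f (volume.restrict (Set.Ioi (0 : ℝ))) :=
    aemeasurable_restrict_of_antitoneOn measurableSet_Ioi (fa.mono Set.Ioi_subset_Ici_self)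
  rw [lintegral_eq_lintegral_meas_lt _ ?_ hm]
  · rw [← lintegral_indicator measurableSet_Ioi, ← lintegral_indicator measurableSet_Ioo]
    refine lintegral_congr fun t => ?_
    by_cases ht : t ∈ Set.Ioo (0 : ℝ) 1
    · rw [Set.indicator_of_mem ht, Set.indicator_of_mem (show t ∈ Set.Ioi (0 : ℝ) from ht.1)]
    · rw [Set.indicator_of_notMem ht]
      by_cases ht0 : t ∈ Set.Ioi (0 : ℝ)
      · rw [Set.indicator_of_mem ht0, Measure.restrict_apply' measurableSet_Ioi]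
        have : {a | t < f a} ∩ Set.Ioi (0 : ℝ) = ∅ := by
          rw [Set.eq_empty_iff_forall_notMem]
          rintro x ⟨hx, hx0⟩
          have h1 : 1 ≤ t := by
            by_contra hc
            exact ht ⟨ht0, not_le.1 hc⟩
          have h2 := fa (Set.mem_Ici.2 le_rfl) (Set.mem_Ici.2 (le_of_lt hx0)) (le_of_lt hx0)
          have h3 : t < f x := hx
          linarith
        rw [this, measure_empty]
      · rw [Set.indicator_of_notMem ht0]
  · filter_upwards [ae_restrict_mem measurableSet_Ioi] with x hx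
    exact f0 x (le_of_lt hx)

/-- the normalised form -/
theorem pl_norm {f g h : ℝ → ℝ} {θ : ℝ} (hθ0 : 0 < θ) (hθ1 : θ < 1)
    (fa : AntitoneOn f (Set.Ici 0)) (ga : AntitoneOn g (Set.Ici 0)) (ha : AntitoneOn h (Set.Ici 0))
    (f0 : ∀ x, 0 ≤ x → 0 ≤ f x) (g0 : ∀ x, 0 ≤ x → 0 ≤ g x) (h0 : ∀ x, 0 ≤ x → 0 ≤ h x)
    {R : ℝ} (fR : ∀ x, R < x → f x = 0) (gR : ∀ x, R < x → g x = 0)
    (f1 : f 0 = 1) (g1 : g 0 = 1)
    (H : ∀ x y, 0 ≤ x → 0 ≤ y → f x ^ (1 - θ) * g y ^ θ ≤ h ((1 - θ) * x + θ * y)) :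
    ENNReal.ofReal (1 - θ) * (∫⁻ x in Set.Ioi (0 : ℝ), ENNReal.ofReal (f x)) +
      ENNReal.ofReal θ * (∫⁻ x in Set.Ioi (0 : ℝ), ENNReal.ofReal (g x)) ≤
      ∫⁻ x in Set.Ioi (0 : ℝ), ENNReal.ofReal (h x) := by
  have h1θ : 0 < 1 - θ := by linarith
  have hmh : AEMeasurable h (volume.restrict (Set.Ioi (0 : ℝ))) :=
    aemeasurable_restrict_of_antitoneOn measurableSet_Ioi (ha.mono Set.Ioi_subset_Ici_self)
  have hhge : ∫⁻ t in Set.Ioo (0 : ℝ) 1, (volume.restrict (Set.Ioi (0 : ℝ))) {x | t < h x} ≤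
      ∫⁻ x in Set.Ioi (0 : ℝ), ENNReal.ofReal (h x) := by
    rw [lintegral_eq_lintegral_meas_lt _ ?_ hmh]
    · exact lintegral_mono_set Set.Ioo_subset_Ioi_self
    · filter_upwards [ae_restrict_mem measurableSet_Ioi] with x hx
      exact h0 x (le_of_lt hx)
  refine le_trans ?_ hhge
  rw [cake fa f0 f1.le, cake ga g0 g1.le]
  have anti : ∀ u : ℝ → ℝ, Antitone fun t : ℝ =>
      (volume.restrict (Set.Ioi (0 : ℝ))) {x | t < u x} := by
    intro u s t hst
    exact measure_mono fun x hx => lt_of_le_of_lt hst hx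
  rw [← lintegral_const_mul _ (anti f).measurable, ← lintegral_const_mul _ (anti g).measurable,
    ← lintegral_add_left ((anti f).measurable.const_mul _)]
  refine setLIntegral_mono' measurableSet_Ioo fun t ht => ?_
  refine level hθ0.le hθ1.le fa ga ha (R := R) (fun x hx => ?_) (fun x hx => ?_) ?_ ?_ ?_
  · rw [fR x hx]; exact ht.1.le
  · rw [gR x hx]; exact ht.1.le
  · rw [f1]; exact ht.2
  · rw [g1]; exact ht.2
  · intro x y hx hy hfx hgy
    refine lt_of_lt_of_le ?_ (H x y hx hy)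
    have e : t = t ^ (1 - θ) * t ^ θ := by
      rw [← Real.rpow_add ht.1]
      simp
    calc t = t ^ (1 - θ) * t ^ θ := e
      _ < f x ^ (1 - θ) * g y ^ θ :=
        mul_lt_mul'' (Real.rpow_lt_rpow ht.1.le hfx h1θ) (Real.rpow_lt_rpow ht.1.le hgy hθ0)
          (Real.rpow_nonneg ht.1.le _) (Real.rpow_nonneg ht.1.le _)

/-- weighted AM-GM in `ℝ≥0∞` -/
theorem amgm {θ : ℝ} (hθ0 : 0 < θ) (hθ1 : θ < 1) (a b : ℝ≥0∞) :
    a ^ (1 - θ) * b ^ θ ≤ ENNReal.ofReal (1 - θ) * a + ENNReal.ofReal θ * b := by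
  have h1θ : 0 < 1 - θ := by linarith
  by_cases ha : a = ∞
  · subst ha
    rw [ENNReal.mul_top (by simpa using h1θ), top_add]
    exact le_top
  by_cases hb : b = ∞
  · subst hb
    rw [ENNReal.mul_top (by simpa using hθ0), add_top]
    exact le_top
  lift a to NNReal using ha
  lift b to NNReal using hb
  have h := Real.geom_mean_le_arith_mean2_weighted h1θ.le hθ0.le a.2 b.2 (by ring)
  have h2 := ENNReal.ofReal_le_ofReal h
  rw [ENNReal.ofReal_mul (Real.rpow_nonneg a.2 _), ENNReal.ofReal_add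
    (mul_nonneg h1θ.le a.2) (mul_nonneg hθ0.le b.2), ENNReal.ofReal_mul h1θ.le,
    ENNReal.ofReal_mul hθ0.le, ← ENNReal.ofReal_rpow_of_nonneg a.2 h1θ.le,
    ← ENNReal.ofReal_rpow_of_nonneg b.2 hθ0.le] at h2
  simpa using h2

/-- One-dimensional Prékopa-Leindler for decreasing functions of bounded support. -/
theorem pl {f g h : ℝ → ℝ} {θ : ℝ} (hθ0 : 0 < θ) (hθ1 : θ < 1)
    (fa : AntitoneOn f (Set.Ici 0)) (ga : AntitoneOn g (Set.Ici 0)) (ha : AntitoneOn h (Set.Ici 0))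
    (f0 : ∀ x, 0 ≤ x → 0 ≤ f x) (g0 : ∀ x, 0 ≤ x → 0 ≤ g x) (h0 : ∀ x, 0 ≤ x → 0 ≤ h x)
    {R : ℝ} (fR : ∀ x, R < x → f x = 0) (gR : ∀ x, R < x → g x = 0)
    (H : ∀ x y, 0 ≤ x → 0 ≤ y → f x ^ (1 - θ) * g y ^ θ ≤ h ((1 - θ) * x + θ * y)) :
    (∫⁻ x in Set.Ioi (0 : ℝ), ENNReal.ofReal (f x)) ^ (1 - θ) *
      (∫⁻ x in Set.Ioi (0 : ℝ), ENNReal.ofReal (g x)) ^ θ ≤
      ∫⁻ x in Set.Ioi (0 : ℝ), ENNReal.ofReal (h x) := by
  have h1θ : 0 < 1 - θ := by linarith
  have zero : ∀ u : ℝ → ℝ, AntitoneOn u (Set.Ici 0) → u 0 ≤ 0 →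
      ∫⁻ x in Set.Ioi (0 : ℝ), ENNReal.ofReal (u x) = 0 := by
    intro u ua hu
    have : ∫⁻ x in Set.Ioi (0 : ℝ), ENNReal.ofReal (u x) = ∫⁻ x in Set.Ioi (0 : ℝ), 0 := by
      refine setLIntegral_congr_fun measurableSet_Ioi fun x hx => ?_
      exact ENNReal.ofReal_eq_zero.2
        ((ua (Set.mem_Ici.2 le_rfl) (Set.mem_Ici.2 (le_of_lt hx)) (le_of_lt hx)).trans hu)
    rw [this]
    simp
  rcases le_or_gt (f 0) 0 with hf | hf
  · rw [zero f fa hf, ENNReal.zero_rpow_of_pos h1θ, zero_mul]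
    exact zero_le
  rcases le_or_gt (g 0) 0 with hg | hg
  · rw [zero g ga hg, ENNReal.zero_rpow_of_pos hθ0, mul_zero]
    exact zero_le
  set p := f 0 with hp
  set q := g 0 with hq
  set r := p ^ (1 - θ) * q ^ θ with hr
  have hr0 : 0 < r := mul_pos (Real.rpow_pos_of_pos hf _) (Real.rpow_pos_of_pos hg _)
  have anti : ∀ (u : ℝ → ℝ) (c : ℝ), 0 < c → AntitoneOn u (Set.Ici 0) →
      AntitoneOn (fun x => c⁻¹ * u x) (Set.Ici 0) := by
    intro u c hc ua x hx y hy hxy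
    exact mul_le_mul_of_nonneg_left (ua hx hy hxy) (inv_nonneg.2 hc.le)
  have h1 := pl_norm (f := fun x => p⁻¹ * f x) (g := fun x => q⁻¹ * g x)
    (h := fun x => r⁻¹ * h x) (R := R) hθ0 hθ1 (anti f p hf fa) (anti g q hg ga)
    (anti h r hr0 ha) (fun x hx => mul_nonneg (inv_nonneg.2 hf.le) (f0 x hx))
    (fun x hx => mul_nonneg (inv_nonneg.2 hg.le) (g0 x hx))
    (fun x hx => mul_nonneg (inv_nonneg.2 hr0.le) (h0 x hx))
    (fun x hx => by simp [fR x hx]) (fun x hx => by simp [gR x hx])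
    (inv_mul_cancel₀ hf.ne') (inv_mul_cancel₀ hg.ne') ?_
  · have h2 := (amgm hθ0 hθ1 _ _).trans h1
    have e : ∀ (u : ℝ → ℝ) (c : ℝ), 0 < c →
        ∫⁻ x in Set.Ioi (0 : ℝ), ENNReal.ofReal (c⁻¹ * u x) =
          (ENNReal.ofReal c)⁻¹ * ∫⁻ x in Set.Ioi (0 : ℝ), ENNReal.ofReal (u x) := by
      intro u c hc
      rw [← lintegral_const_mul' _ _ (by simpa using hc)]
      refine lintegral_congr fun x => ?_
      rw [ENNReal.ofReal_mul (inv_nonneg.2 hc.le), ENNReal.ofReal_inv_of_pos hc]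
    rw [e f p hf, e g q hg, e h r hr0, ENNReal.mul_rpow_of_nonneg _ _ h1θ.le,
      ENNReal.mul_rpow_of_nonneg _ _ hθ0.le] at h2
    have h3 : (ENNReal.ofReal p)⁻¹ ^ (1 - θ) * (ENNReal.ofReal q)⁻¹ ^ θ =
        (ENNReal.ofReal r)⁻¹ := by
      rw [← ENNReal.ofReal_inv_of_pos hf, ← ENNReal.ofReal_inv_of_pos hg,
        ← ENNReal.ofReal_inv_of_pos hr0, ENNReal.ofReal_rpow_of_pos (inv_pos.2 hf),
        ENNReal.ofReal_rpow_of_pos (inv_pos.2 hg), ← ENNReal.ofReal_mul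
        (Real.rpow_nonneg (inv_pos.2 hf).le _), hr, Real.inv_rpow hf.le, Real.inv_rpow hg.le,
        mul_inv]
    have h4 : (ENNReal.ofReal r)⁻¹ * ((∫⁻ x in Set.Ioi (0 : ℝ), ENNReal.ofReal (f x)) ^ (1 - θ) *
        (∫⁻ x in Set.Ioi (0 : ℝ), ENNReal.ofReal (g x)) ^ θ) ≤
        (ENNReal.ofReal r)⁻¹ * ∫⁻ x in Set.Ioi (0 : ℝ), ENNReal.ofReal (h x) := by
      rw [← h3] at h2 ⊢
      calc _ = _ := by ring
        _ ≤ _ := h2
    have h5 : (ENNReal.ofReal r)⁻¹ ≠ 0 := by simp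
    have h6 : (ENNReal.ofReal r)⁻¹ ≠ ∞ := by simpa using hr0
    exact (ENNReal.mul_le_mul_iff_right h5 h6).1 h4
  · intro x y hx hy
    have h2 := H x y hx hy
    rw [Real.mul_rpow (inv_nonneg.2 hf.le) (f0 x hx), Real.mul_rpow (inv_nonneg.2 hg.le) (g0 y hy)]
    have h3 : p⁻¹ ^ (1 - θ) * q⁻¹ ^ θ = r⁻¹ := by
      rw [hr, Real.inv_rpow hf.le, Real.inv_rpow hg.le, mul_inv]
    calc p⁻¹ ^ (1 - θ) * f x ^ (1 - θ) * (q⁻¹ ^ θ * g y ^ θ) =
        (p⁻¹ ^ (1 - θ) * q⁻¹ ^ θ) * (f x ^ (1 - θ) * g y ^ θ) := by ring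
      _ = r⁻¹ * (f x ^ (1 - θ) * g y ^ θ) := by rw [h3]
      _ ≤ r⁻¹ * h ((1 - θ) * x + θ * y) :=
        mul_le_mul_of_nonneg_left h2 (inv_nonneg.2 hr0.le)


/-! ### the bodies -/

theorem dm_closed {n : ℕ} {φ : Fin n → ℝ → ℝ} (h : Orl φ) (l : ℝ) : IsClosed (Dm φ l) := by
  have h1 : Dm φ l = {x | ∀ i, 0 ≤ x i} ∩ {x | ∑ i, φ i (max (x i) 0) ≤ l} := by
    ext x
    constructor
    · rintro ⟨hx, hs⟩
      refine ⟨hx, ?_⟩
      have : ∑ i, φ i (max (x i) 0) = ∑ i, φ i (x i) :=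
        Finset.sum_congr rfl fun i _ => by rw [max_eq_left (hx i)]
      rw [Set.mem_ofPred_eq, this]
      exact hs
    · rintro ⟨hx, hs⟩
      refine ⟨hx, ?_⟩
      have : ∑ i, φ i (max (x i) 0) = ∑ i, φ i (x i) :=
        Finset.sum_congr rfl fun i _ => by rw [max_eq_left (hx i)]
      rw [Set.mem_ofPred_eq, this] at hs
      exact hs
  have hc : ∀ i, Continuous fun t : ℝ => φ i (max t 0) := fun i =>
    (h.cont i).comp_continuous (continuous_id.max continuous_const) fun t =>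
      Set.mem_Ici.2 (le_max_right _ _)
  rw [h1]
  refine IsClosed.inter ?_ ?_
  · rw [Set.ofPred_forall]
    exact isClosed_iInter fun i => isClosed_le continuous_const (continuous_apply i)
  · exact isClosed_le (continuous_finsetSum _ fun i _ => (hc i).comp (continuous_apply i))
      continuous_const

theorem nonneg {n : ℕ} {φ : Fin n → ℝ → ℝ} (h : Orl φ) (i : Fin n) {t : ℝ} (ht : 0 ≤ t) :
    0 ≤ φ i t := by
  have := h.mono i (Set.mem_Ici.2 le_rfl) (Set.mem_Ici.2 ht) ht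
  rwa [h.zero i] at this

theorem growth {n : ℕ} {φ : Fin n → ℝ → ℝ} (h : Orl φ) (i : Fin n) (l : ℝ) :
    ∃ R, 0 < R ∧ ∀ t, 0 ≤ t → φ i t ≤ l → t ≤ R := by
  obtain ⟨p, hp, hφ⟩ := h.pos i
  refine ⟨max p (l * p / φ i p), lt_max_of_lt_left hp, fun t ht htl => ?_⟩
  rcases le_or_gt t p with h1 | h1
  · exact le_max_of_le_left h1
  · refine le_max_of_le_right ?_
    have ht0 : 0 < t := hp.trans h1
    have h2 := (h.conv i).2 (Set.mem_Ici.2 (le_refl (0 : ℝ))) (Set.mem_Ici.2 ht)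
      (show 0 ≤ 1 - p / t from by rw [sub_nonneg, div_le_one ht0]; exact h1.le)
      (show 0 ≤ p / t from by positivity) (by ring)
    simp only [smul_eq_mul, mul_zero, zero_add, h.zero i] at h2
    rw [div_mul_cancel₀ _ ht0.ne'] at h2
    rw [le_div_iff₀ hφ]
    have h3 : φ i p * t ≤ p * φ i t := by
      have h4 : φ i p * t ≤ p / t * φ i t * t := mul_le_mul_of_nonneg_right h2 ht
      have h5 : p / t * φ i t * t = p * φ i t := by field_simp
      linarith
    nlinarith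

theorem V_fin {n : ℕ} {φ : Fin n → ℝ → ℝ} (h : Orl φ) (l : ℝ) : V φ l ≠ ∞ := by
  choose R hR0 hR using fun i => growth h i l
  have h1 : Dm φ l ⊆ Set.Icc 0 R := by
    rintro x ⟨hx, hs⟩
    refine ⟨fun i => hx i, fun i => hR i _ (hx i) ?_⟩
    refine le_trans ?_ hs
    exact Finset.single_le_sum (f := fun i => φ i (x i)) (fun j _ => nonneg h j (hx j))
      (Finset.mem_univ i)
  exact (lt_of_le_of_lt (measure_mono h1) isCompact_Icc.measure_lt_top).ne

theorem V_mono {n : ℕ} (φ : Fin n → ℝ → ℝ) {l l' : ℝ} (hl : l ≤ l') : V φ l ≤ V φ l' :=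
  measure_mono fun _ hx => ⟨hx.1, hx.2.trans hl⟩

theorem V_neg {n : ℕ} {φ : Fin n → ℝ → ℝ} (h : Orl φ) {l : ℝ} (hl : l < 0) : V φ l = 0 := by
  have : Dm φ l = ∅ := by
    rw [Set.eq_empty_iff_forall_notMem]
    rintro x ⟨hx, hs⟩
    have := Finset.sum_nonneg (s := Finset.univ) fun i _ => nonneg h i (hx i)
    linarith
  rw [V, this, measure_empty]

theorem succ {n : ℕ} {φ : Fin (n + 1) → ℝ → ℝ} (h : Orl φ) :
    Orl (fun i : Fin n => φ i.succ) :=
  ⟨fun _ => h.cont _, fun _ => h.conv _, fun _ => h.mono _, fun _ => h.zero _, fun _ => h.pos _⟩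

theorem V_succ {n : ℕ} {φ : Fin (n + 1) → ℝ → ℝ} (h : Orl φ) (l : ℝ) :
    V φ l = ∫⁻ t in Set.Ioi (0 : ℝ), V (fun i : Fin n => φ i.succ) (l - φ 0 t) := by
  have hD : MeasurableSet (Dm φ l) := (dm_closed h l).measurableSet
  rw [V, ← lintegral_indicator_one hD,
    Vale.Agent.P254.Sec.lintegral_fin_succ (measurable_one.indicator hD),
    setLIntegral_congr Ioi_ae_eq_Ici, ← lintegral_indicator measurableSet_Ici]
  refine lintegral_congr fun t => ?_
  by_cases ht : t ∈ Set.Ici (0 : ℝ)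
  · rw [Set.indicator_of_mem ht, V, ← lintegral_indicator_one (dm_closed (succ h) _).measurableSet]
    refine lintegral_congr fun y => ?_
    have : (Fin.cons t y : Fin (n + 1) → ℝ) ∈ Dm φ l ↔
        y ∈ Dm (fun i : Fin n => φ i.succ) (l - φ 0 t) := by
      simp only [Dm, Set.mem_ofPred_eq, Fin.forall_fin_succ, Fin.cons_zero, Fin.cons_succ,
        Fin.sum_univ_succ]
      constructor
      · rintro ⟨⟨_, h1⟩, h2⟩
        exact ⟨h1, by linarith⟩
      · rintro ⟨h1, h2⟩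
        exact ⟨⟨ht, h1⟩, by linarith⟩
    by_cases hy : y ∈ Dm (fun i : Fin n => φ i.succ) (l - φ 0 t)
    · rw [Set.indicator_of_mem hy, Set.indicator_of_mem (this.2 hy)]
      rfl
    · rw [Set.indicator_of_notMem hy, Set.indicator_of_notMem (fun hc => hy (this.1 hc))]
  · rw [Set.indicator_of_notMem ht]
    refine (lintegral_congr fun y => ?_).trans lintegral_zero
    rw [Set.indicator_of_notMem]
    intro hc
    exact ht (by simpa using hc.1 0)

/-- the Prékopa-Leindler form -/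
theorem V_pl : ∀ (n : ℕ) {φ : Fin n → ℝ → ℝ}, Orl φ → ∀ {θ : ℝ}, 0 < θ → θ < 1 → ∀ a b : ℝ,
    V φ a ^ (1 - θ) * V φ b ^ θ ≤ V φ ((1 - θ) * a + θ * b) := by
  intro n
  induction n with
  | zero =>
    intro φ h θ hθ0 hθ1 a b
    have h1θ : 0 < 1 - θ := by linarith
    rcases lt_or_ge a 0 with ha | ha
    · rw [V_neg h ha, ENNReal.zero_rpow_of_pos h1θ, zero_mul]
      exact zero_le
    rcases lt_or_ge b 0 with hb | hb
    · rw [V_neg h hb, ENNReal.zero_rpow_of_pos hθ0, mul_zero]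
      exact zero_le
    have e : ∀ l : ℝ, 0 ≤ l → V φ l = 1 := by
      intro l hl
      have : Dm φ l = Set.univ := by
        rw [Set.eq_univ_iff_forall]
        intro x
        refine ⟨fun i => i.elim0, ?_⟩
        simpa using hl
      rw [V, this, volume_pi, Measure.pi_univ]
      simp
    rw [e a ha, e b hb, e _ (by positivity)]
    simp
  | succ n ih =>
    intro φ h θ hθ0 hθ1 a b
    have h1θ : 0 < 1 - θ := by linarith
    set φ' : Fin n → ℝ → ℝ := fun i => φ i.succ with hφ'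
    have h' : Orl φ' := succ h
    have hof : ∀ l : ℝ, ENNReal.ofReal (V φ' l).toReal = V φ' l := fun l =>
      ENNReal.ofReal_toReal (V_fin h' l)
    have anti : ∀ l : ℝ, AntitoneOn (fun t => (V φ' (l - φ 0 t)).toReal) (Set.Ici 0) := by
      intro l x hx y hy hxy
      refine ENNReal.toReal_mono (V_fin h' _) (V_mono φ' ?_)
      linarith [h.mono 0 hx hy hxy]
    obtain ⟨R, hR0, hR⟩ := growth h 0 (max a b)
    have van : ∀ l : ℝ, l ≤ max a b → ∀ x, R < x → (V φ' (l - φ 0 x)).toReal = 0 := by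
      intro l hl x hx
      have h1 : max a b < φ 0 x := by
        by_contra hc
        exact absurd (hR x (hR0.trans hx).le (not_lt.1 hc)) (not_le.2 hx)
      rw [V_neg h' (by linarith)]
      rfl
    have h1 := pl (f := fun t => (V φ' (a - φ 0 t)).toReal)
      (g := fun t => (V φ' (b - φ 0 t)).toReal)
      (h := fun t => (V φ' ((1 - θ) * a + θ * b - φ 0 t)).toReal) hθ0 hθ1 (anti _) (anti _)
      (anti _) (fun _ _ => ENNReal.toReal_nonneg) (fun _ _ => ENNReal.toReal_nonneg)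
      (fun _ _ => ENNReal.toReal_nonneg) (van a (le_max_left _ _)) (van b (le_max_right _ _)) ?_
    · simp only [hof] at h1
      rw [V_succ h, V_succ h, V_succ h]
      exact h1
    · intro x y hx hy
      have h2 := ih h' hθ0 hθ1 (a - φ 0 x) (b - φ 0 y)
      have h3 : V φ' ((1 - θ) * (a - φ 0 x) + θ * (b - φ 0 y)) ≤
          V φ' ((1 - θ) * a + θ * b - φ 0 ((1 - θ) * x + θ * y)) := by
        refine V_mono φ' ?_
        have h4 := (h.conv 0).2 (Set.mem_Ici.2 hx) (Set.mem_Ici.2 hy) h1θ.le hθ0.le (by ring)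
        simp only [smul_eq_mul] at h4
        linarith
      have h5 := ENNReal.toReal_mono (V_fin h' _) (h2.trans h3)
      rw [ENNReal.toReal_mul, ← ENNReal.toReal_rpow, ← ENNReal.toReal_rpow] at h5
      exact h5

end LC

/-- [LC] log-concavity of the volume in the level -/
theorem V_logconcave {n : ℕ} {φ : Fin n → ℝ → ℝ} (h : Orl φ) {a b d : ℝ} (hab : a ≤ b)
    (hd : 0 ≤ d) : V φ a * V φ (b + d) ≤ V φ (a + d) * V φ b := by
  rcases hab.eq_or_lt with rfl | hab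
  · rw [mul_comm]
  rcases hd.eq_or_lt with rfl | hd
  · simp
  set L : ℝ := b + d - a with hL
  have hL0 : 0 < L := by rw [hL]; linarith
  set θ : ℝ := d / L with hθ
  have hθ0 : 0 < θ := div_pos hd hL0
  have hθ1 : θ < 1 := by rw [hθ, div_lt_one hL0]; linarith
  have h1 := LC.V_pl n h hθ0 hθ1 a (b + d)
  have h2 := LC.V_pl n h (θ := 1 - θ) (by linarith) (by linarith) a (b + d)
  have hθL : θ * L = d := by rw [hθ]; exact div_mul_cancel₀ _ hL0.ne'
  have e1 : (1 - θ) * a + θ * (b + d) = a + d := by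
    have : (1 - θ) * a + θ * (b + d) = a + θ * L := by rw [hL]; ring
    rw [this, hθL]
  have e2 : (1 - (1 - θ)) * a + (1 - θ) * (b + d) = b := by
    have : (1 - (1 - θ)) * a + (1 - θ) * (b + d) = b + d - θ * L := by rw [hL]; ring
    rw [this, hθL]
    ring
  rw [e1] at h1
  rw [e2, sub_sub_cancel] at h2
  have pw : ∀ x : ℝ≥0∞, x ^ (1 - θ) * x ^ θ = x := by
    intro x
    rw [← ENNReal.rpow_add_of_nonneg _ _ (by linarith) hθ0.le]
    simp
  calc V φ a * V φ (b + d) = (V φ a ^ (1 - θ) * V φ a ^ θ) *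
        (V φ (b + d) ^ (1 - θ) * V φ (b + d) ^ θ) := by rw [pw, pw]
    _ = (V φ a ^ (1 - θ) * V φ (b + d) ^ θ) * (V φ a ^ θ * V φ (b + d) ^ (1 - θ)) := by ring
    _ ≤ V φ (a + d) * V φ b := mul_le_mul' h1 h2

end Vale.Agent.P254o
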