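import Vale.Agent.P254o.Defs

/-!
P254, Musielak-Orlicz balls: topology of the ball.
-/

namespace Vale.Agent.P254o

open MeasureTheory
open scoped ENNReal
open Vale.Agent.P254 (posPart)

namespace OB

theorem nonneg {n : ℕ} {φ : Fin n → ℝ → ℝ} (h : Orl φ) (i : Fin n) {t : ℝ} (ht : 0 ≤ t) :
    0 ≤ φ i t := by
  have := h.mono i (Set.mem_Ici.2 le_rfl) (Set.mem_Ici.2 ht) ht
  rwa [h.zero i] at this

theorem posPart_ball {n : ℕ} (φ : Fin n → ℝ → ℝ) : posPart (Ball φ) = Dm φ 1 := by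
  ext x
  constructor
  · intro hx
    have h1 : x ∈ Ball φ := hx.1
    have h2 : ∀ i, 0 ≤ x i := hx.2
    refine ⟨h2, ?_⟩
    have h3 : ∑ i, φ i |x i| ≤ 1 := h1
    have e : ∀ i, |x i| = x i := fun i => abs_of_nonneg (h2 i)
    simpa only [e] using h3
  · intro hx
    have h2 : ∀ i, 0 ≤ x i := hx.1
    have h3 : ∑ i, φ i (x i) ≤ 1 := hx.2
    have e : ∀ i, |x i| = x i := fun i => abs_of_nonneg (h2 i)
    refine ⟨?_, h2⟩
    change ∑ i, φ i |x i| ≤ 1
    simpa only [e] using h3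

theorem cont_sum {n : ℕ} {φ : Fin n → ℝ → ℝ} (h : Orl φ) :
    Continuous fun x : Fin n → ℝ => ∑ i, φ i |x i| := by
  refine continuous_finsetSum _ fun i _ => ?_
  exact (h.cont i).comp_continuous ((continuous_apply i).abs) fun x => Set.mem_Ici.2 (abs_nonneg _)

theorem bound {n : ℕ} {φ : Fin n → ℝ → ℝ} (h : Orl φ) (i : Fin n) :
    ∃ R : ℝ, 0 < R ∧ ∀ t, 0 ≤ t → φ i t ≤ 1 → t ≤ R := by
  obtain ⟨x, hx, hp⟩ := h.pos i
  refine ⟨x + x / φ i x, by positivity, fun t ht h1 => ?_⟩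
  by_contra hc
  push Not at hc
  have hxt : x < t := lt_of_le_of_lt (by have : 0 < x / φ i x := by positivity
                                         linarith) hc
  have hxt' : x / φ i x < t := by linarith
  have htp : 0 < t := hx.trans hxt
  -- x = (x / t) t + (1 - x / t) 0
  have hr : 0 ≤ x / t := by positivity
  have hr1 : x / t ≤ 1 := by rw [div_le_one htp]; exact hxt.le
  have hcv := (h.conv i).2 (Set.mem_Ici.2 ht) (Set.mem_Ici.2 (le_refl (0 : ℝ))) hr
    (by linarith : (0 : ℝ) ≤ 1 - x / t) (by ring)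
  simp only [smul_eq_mul, mul_zero, add_zero, h.zero i] at hcv
  rw [div_mul_cancel₀ x htp.ne'] at hcv
  have h2 : φ i x ≤ x / t * 1 := hcv.trans (mul_le_mul_of_nonneg_left h1 hr)
  rw [mul_one, le_div_iff₀ htp] at h2
  rw [div_lt_iff₀ hp] at hxt'
  linarith [mul_comm t (φ i x)]

end OB

theorem posPart_ball {n : ℕ} (φ : Fin n → ℝ → ℝ) : posPart (Ball φ) = Dm φ 1 :=
  OB.posPart_ball φ

theorem ball_compact {n : ℕ} {φ : Fin n → ℝ → ℝ} (h : Orl φ) : IsCompact (Ball φ) := by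
  choose R hR0 hR using OB.bound h
  refine Metric.isCompact_of_isClosed_isBounded ?_ ?_
  · exact isClosed_le (OB.cont_sum h) continuous_const
  · refine (Metric.isBounded_iff_subset_closedBall 0).2 ⟨∑ i, R i, fun x hx => ?_⟩
    rw [mem_closedBall_zero_iff, pi_norm_le_iff_of_nonneg (Finset.sum_nonneg fun i _ => (hR0 i).le)]
    intro i
    have hx' : ∑ i, φ i |x i| ≤ 1 := hx
    have h1 : φ i |x i| ≤ 1 :=
      (Finset.single_le_sum (f := fun i => φ i |x i|)
        (fun j _ => OB.nonneg h j (abs_nonneg _)) (Finset.mem_univ i)).trans hx'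
    rw [Real.norm_eq_abs]
    exact (hR i _ (abs_nonneg _) h1).trans
      (Finset.single_le_sum (f := R) (fun j _ => (hR0 j).le) (Finset.mem_univ i))

theorem ball_interior {n : ℕ} {φ : Fin n → ℝ → ℝ} (h : Orl φ) :
    (interior (Ball φ)).Nonempty := by
  have ho : IsOpen {x : Fin n → ℝ | ∑ i, φ i |x i| < 1} :=
    isOpen_lt (OB.cont_sum h) continuous_const
  refine ⟨0, mem_interior.2 ⟨{x : Fin n → ℝ | ∑ i, φ i |x i| < 1}, fun x hx => ?_, ho, ?_⟩⟩
  · exact le_of_lt (show ∑ i, φ i |x i| < 1 from hx)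
  change ∑ i, φ i |(0 : Fin n → ℝ) i| < 1
  simp [h.zero]

theorem ball_convex {n : ℕ} {φ : Fin n → ℝ → ℝ} (h : Orl φ) : Convex ℝ (Ball φ) := by
  intro x hx y hy a b ha hb hab
  have key : ∀ i, φ i |(a • x + b • y) i| ≤ a * φ i |x i| + b * φ i |y i| := by
    intro i
    have h1 : |(a • x + b • y) i| ≤ a * |x i| + b * |y i| := by
      have e : (a • x + b • y) i = a * x i + b * y i := by simp
      rw [e]
      refine (abs_add_le _ _).trans ?_
      rw [abs_mul, abs_mul, abs_of_nonneg ha, abs_of_nonneg hb]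
    have h2 := h.mono i (Set.mem_Ici.2 (abs_nonneg _))
      (Set.mem_Ici.2 (by positivity : 0 ≤ a * |x i| + b * |y i|)) h1
    have h3 := (h.conv i).2 (Set.mem_Ici.2 (abs_nonneg (x i))) (Set.mem_Ici.2 (abs_nonneg (y i)))
      ha hb hab
    simp only [smul_eq_mul] at h3
    exact h2.trans h3
  have hx' : ∑ i, φ i |x i| ≤ 1 := hx
  have hy' : ∑ i, φ i |y i| ≤ 1 := hy
  change ∑ i, φ i |(a • x + b • y) i| ≤ 1
  calc ∑ i, φ i |(a • x + b • y) i| ≤ ∑ i, (a * φ i |x i| + b * φ i |y i|) :=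
        Finset.sum_le_sum fun i _ => key i
    _ = a * ∑ i, φ i |x i| + b * ∑ i, φ i |y i| := by
        rw [Finset.sum_add_distrib, Finset.mul_sum, Finset.mul_sum]
    _ ≤ a * 1 + b * 1 := by gcongr
    _ = 1 := by linarith

theorem ball_sign {n : ℕ} (φ : Fin n → ℝ → ℝ) (s : Fin n → ℤˣ) {x : Fin n → ℝ}
    (hx : x ∈ Ball φ) : (fun i => ((s i : ℤ) : ℝ) * x i) ∈ Ball φ := by
  have e : ∀ i, |((s i : ℤ) : ℝ) * x i| = |x i| := by
    intro i
    rcases Int.units_eq_one_or (s i) with h | h <;> simp [h]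
  change ∑ i, φ i |((s i : ℤ) : ℝ) * x i| ≤ 1
  simp only [e]
  exact hx

end Vale.Agent.P254o
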