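import Vale.Agent.P254o.Defs
import Vale.Agent.P254.Sec
import Vale.Agent.P254.NSec

/-!
P254o, row ORL: the positive parts of Musielak-Orlicz balls.
-/

namespace Vale.Agent.P254o

open MeasureTheory
open scoped ENNReal
open Vale.Agent.P254 (sec A F)
open Vale.Agent.P254.NS (AC)

namespace OrlAux

theorem nonneg {n : ℕ} {φ : Fin n → ℝ → ℝ} (h : Orl φ) (i : Fin n) {x : ℝ} (hx : 0 ≤ x) :
    0 ≤ φ i x := by
  have h1 := h.mono i (Set.mem_Ici.2 le_rfl) (Set.mem_Ici.2 hx) hx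
  rwa [h.zero i] at h1

theorem le_of_mem {n : ℕ} {φ : Fin n → ℝ → ℝ} (h : Orl φ) {l : ℝ} {x : Fin n → ℝ}
    (hx : x ∈ Dm φ l) (i : Fin n) : φ i (x i) ≤ l :=
  (Finset.single_le_sum (f := fun i => φ i (x i)) (fun j _ => nonneg h j (hx.1 j))
    (Finset.mem_univ i)).trans hx.2

theorem exists_bound {n : ℕ} {φ : Fin n → ℝ → ℝ} (h : Orl φ) (l : ℝ) (i : Fin n) :
    ∃ R : ℝ, ∀ y, 0 ≤ y → φ i y ≤ l → y ≤ R := by
  obtain ⟨x, hx, hφ⟩ := h.pos i
  refine ⟨max x (x * l / φ i x), fun y hy hl => ?_⟩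
  by_cases hxy : y ≤ x
  · exact hxy.trans (le_max_left _ _)
  · push Not at hxy
    refine le_trans ?_ (le_max_right _ _)
    have hy0 : 0 < y := hx.trans hxy
    have ha : (0 : ℝ) ≤ 1 - x / y := by
      rw [sub_nonneg, div_le_one hy0]
      exact hxy.le
    have hb : (0 : ℝ) ≤ x / y := by positivity
    have h1 := (h.conv i).2 (Set.mem_Ici.2 (le_refl (0 : ℝ))) (Set.mem_Ici.2 hy) ha hb (by ring)
    have h2 : (1 - x / y) • (0 : ℝ) + (x / y) • y = x := by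
      simp only [smul_eq_mul]
      field_simp
      ring
    rw [h2, h.zero i, smul_zero, zero_add, smul_eq_mul, div_mul_eq_mul_div, le_div_iff₀ hy0] at h1
    rw [le_div_iff₀ hφ]
    nlinarith

theorem isClosed_Dm {n : ℕ} {φ : Fin n → ℝ → ℝ} (h : Orl φ) (l : ℝ) : IsClosed (Dm φ l) := by
  have h1 : IsClosed {x : Fin n → ℝ | ∀ i, 0 ≤ x i} := by
    have : {x : Fin n → ℝ | ∀ i, 0 ≤ x i} = ⋂ i, {x : Fin n → ℝ | 0 ≤ x i} := by
      ext x
      simp
    rw [this]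
    exact isClosed_iInter fun i => isClosed_le continuous_const (continuous_apply i)
  have h2 : ContinuousOn (fun x : Fin n → ℝ => ∑ i, φ i (x i)) {x : Fin n → ℝ | ∀ i, 0 ≤ x i} := by
    refine continuousOn_finsetSum _ fun i _ => ?_
    exact (h.cont i).comp (continuous_apply i).continuousOn fun x hx => Set.mem_Ici.2 (hx i)
  exact h2.preimage_isClosed_of_isClosed h1 isClosed_Iic

end OrlAux

theorem ac_Dm {n : ℕ} {φ : Fin n → ℝ → ℝ} (h : Orl φ) (l : ℝ) : AC (Dm φ l) := by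
  refine ⟨?_, ?_, fun x hx => hx.1, ?_⟩
  · choose R hR using OrlAux.exists_bound h l
    refine (isCompact_Icc (a := (0 : Fin n → ℝ)) (b := R)).of_isClosed_subset
      (OrlAux.isClosed_Dm h l) fun x hx => ⟨fun i => hx.1 i, fun i => ?_⟩
    exact hR i (x i) (hx.1 i) (OrlAux.le_of_mem h hx i)
  · intro x hx y hy a b ha hb hab
    refine ⟨fun i => ?_, ?_⟩
    · have h1 := mul_nonneg ha (hx.1 i)
      have h2 := mul_nonneg hb (hy.1 i)
      simpa using add_nonneg h1 h2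
    · calc ∑ i, φ i ((a • x + b • y) i) ≤ ∑ i, (a * φ i (x i) + b * φ i (y i)) := by
            refine Finset.sum_le_sum fun i _ => ?_
            exact (h.conv i).2 (Set.mem_Ici.2 (hx.1 i)) (Set.mem_Ici.2 (hy.1 i)) ha hb hab
        _ = a * ∑ i, φ i (x i) + b * ∑ i, φ i (y i) := by
            rw [Finset.sum_add_distrib, Finset.mul_sum, Finset.mul_sum]
        _ ≤ a * l + b * l := add_le_add (mul_le_mul_of_nonneg_left hx.2 ha)
            (mul_le_mul_of_nonneg_left hy.2 hb)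
        _ = l := by rw [← add_mul, hab, one_mul]
  · intro x hx y hy hyx
    refine ⟨hy, le_trans (Finset.sum_le_sum fun i _ => ?_) hx.2⟩
    exact h.mono i (Set.mem_Ici.2 (hy i)) (Set.mem_Ici.2 (hx.1 i)) (hyx i)

theorem orl_succ {n : ℕ} {φ : Fin (n + 1) → ℝ → ℝ} (h : Orl φ) :
    Orl (fun i : Fin n => φ i.succ) :=
  ⟨fun _ => h.cont _, fun _ => h.conv _, fun _ => h.mono _, fun _ => h.zero _, fun _ => h.pos _⟩

theorem sec_Dm {n : ℕ} (φ : Fin (n + 1) → ℝ → ℝ) (l : ℝ) {t : ℝ} (ht : 0 ≤ t) :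
    sec (Dm φ l) t = Dm (fun i : Fin n => φ i.succ) (l - φ 0 t) := by
  ext y
  show ((∀ i, 0 ≤ (Fin.cons t y : Fin (n + 1) → ℝ) i) ∧
    ∑ i, φ i ((Fin.cons t y : Fin (n + 1) → ℝ) i) ≤ l) ↔ _
  rw [Fin.forall_fin_succ, Fin.sum_univ_succ]
  simp only [Fin.cons_zero, Fin.cons_succ]
  constructor
  · rintro ⟨⟨-, h1⟩, h2⟩
    exact ⟨h1, by linarith⟩
  · rintro ⟨h1, h2⟩
    exact ⟨⟨ht, h1⟩, by linarith⟩

theorem orl_perm {n : ℕ} {φ : Fin n → ℝ → ℝ} (h : Orl φ) (σ : Equiv.Perm (Fin n)) :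
    Orl (fun i => φ (σ i)) :=
  ⟨fun _ => h.cont _, fun _ => h.conv _, fun _ => h.mono _, fun _ => h.zero _, fun _ => h.pos _⟩

/-- change of variables by a permutation of the coordinates -/
theorem int_perm {n : ℕ} (φ : Fin n → ℝ → ℝ) (h : Orl φ) (l : ℝ) (σ : Equiv.Perm (Fin n))
    {g : (Fin n → ℝ) → ℝ≥0∞} (hg : Measurable g) :
    ∫⁻ x in Dm (fun i => φ (σ i)) l, g x = ∫⁻ x in Dm φ l, g (x ∘ σ) := by
  have hD : MeasurableSet (Dm (fun i => φ (σ i)) l) :=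
    (OrlAux.isClosed_Dm (orl_perm h σ) l).measurableSet
  have h1 := (Vale.Agent.P254.Sec.mp_perm σ).setLIntegral_comp_preimage hD hg
  rw [← h1]
  have h2 : (fun x : Fin n → ℝ => x ∘ σ) ⁻¹' Dm (fun i => φ (σ i)) l = Dm φ l := by
    ext x
    constructor
    · rintro ⟨h3, h4⟩
      refine ⟨fun i => ?_, ?_⟩
      · have := h3 (σ.symm i)
        simpa using this
      · have h5 := Equiv.sum_comp σ (fun i => φ i (x i))
        rw [← h5]
        exact h4
    · rintro ⟨h3, h4⟩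
      refine ⟨fun i => h3 (σ i), ?_⟩
      have h5 := Equiv.sum_comp σ (fun i => φ i (x i))
      show ∑ i, φ (σ i) (x (σ i)) ≤ l
      rw [h5]
      exact h4
  rw [h2]

end Vale.Agent.P254o
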